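import Mathlib

/-! P315, analysis with leaf weights: the total variation of the logarithm of the density along a
weighted lineage, and the number of levels in dyadic cells in which the density grows fast.
Plain Mathlib. -/

set_option autoImplicit false

namespace Vale.Agent.P315.H968

open Finset

/-! ### One level -/

theorem log_neg_le {r : ℝ} (hr : 0 < r) : max (-Real.log r) 0 ≤ max (1 - r) 0 / r := by
  rcases le_total 1 r with h | h
  · have h1 : 0 ≤ Real.log r := Real.log_nonneg h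
    rw [max_eq_right (by linarith), max_eq_right (by linarith)]
    simp
  · have h1 : Real.log r ≤ 0 := Real.log_nonpos hr.le h
    rw [max_eq_left (by linarith), max_eq_left (by linarith)]
    have h2 := Real.log_le_sub_one_of_pos (inv_pos.mpr hr)
    rw [Real.log_inv] at h2
    have h3 : (1 - r) / r = r⁻¹ - 1 := by field_simp
    rw [h3]
    exact h2

/-- `log r - 1 + 1/r ≥ (1-r)²/(2r)` for `0 < r ≤ 1`. -/
theorem phi_ge {r : ℝ} (hr : 0 < r) (h1 : r ≤ 1) :
    (1 - r) ^ 2 / r ≤ 2 * (Real.log r - 1 + r⁻¹) := by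
  -- `log r ≥ (r - 1/r)/2` for `r ≤ 1`
  have key : (r - r⁻¹) / 2 ≤ Real.log r := by
    -- `log t ≤ (t - 1/t)/2` for `t ≥ 1`
    have hmono : MonotoneOn (fun t : ℝ => (t - t⁻¹) / 2 - Real.log t) (Set.Ioi 0) := by
      have hd : ∀ t : ℝ, 0 < t → HasDerivAt (fun t : ℝ => (t - t⁻¹) / 2 - Real.log t)
          ((1 - -(t ^ 2)⁻¹) / 2 - t⁻¹) t := by
        intro t ht
        have h := ((hasDerivAt_id' t).fun_sub (hasDerivAt_inv ht.ne')).div_const 2
        exact h.fun_sub (Real.hasDerivAt_log ht.ne')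
      refine monotoneOn_of_deriv_nonneg (convex_Ioi 0) ?_ ?_ ?_
      · intro t ht
        exact (hd t ht).continuousAt.continuousWithinAt
      · intro t ht
        rw [interior_Ioi] at ht
        exact (hd t ht).differentiableAt.differentiableWithinAt
      · intro t ht
        rw [interior_Ioi] at ht
        have ht' : (0 : ℝ) < t := ht
        rw [(hd t ht').deriv]
        have : (1 - -(t ^ 2)⁻¹) / 2 - t⁻¹ = (1 - t⁻¹) ^ 2 / 2 := by
          field_simp
          ring
        rw [this]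
        positivity
    have h2 := hmono (Set.mem_Ioi.mpr hr) (Set.mem_Ioi.mpr one_pos) h1
    simp only [inv_one, sub_self, zero_div, Real.log_one] at h2
    linarith
  have h3 : (1 - r) ^ 2 / r = r⁻¹ - 2 + r := by
    field_simp
    ring
  rw [h3]
  linarith

variable {X : Type*} [Fintype X]

theorem log_avg_nonneg (w r : X → ℝ) (hw : ∀ x, 0 < w x) (hr : ∀ x, 0 < r x)
    (h : ∑ x, w x / r x ≤ ∑ x, w x) : 0 ≤ ∑ x, w x * Real.log (r x) := by
  have h1 : ∀ x, w x - w x / r x ≤ w x * Real.log (r x) := by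
    intro x
    have h2 := Real.log_le_sub_one_of_pos (inv_pos.mpr (hr x))
    rw [Real.log_inv] at h2
    have h3 : w x * (1 - (r x)⁻¹) ≤ w x * Real.log (r x) :=
      mul_le_mul_of_nonneg_left (by linarith) (hw x).le
    have h4 : w x - w x / r x = w x * (1 - (r x)⁻¹) := by
      rw [div_eq_mul_inv]; ring
    rw [h4]; exact h3
  have h5 := Finset.sum_le_sum (fun x (_ : x ∈ (univ : Finset X)) => h1 x)
  rw [Finset.sum_sub_distrib] at h5
  linarith

theorem log_neg_avg_sq (w r : X → ℝ) (hw : ∀ x, 0 < w x) (hr : ∀ x, 0 < r x)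
    (h : ∑ x, w x / r x ≤ ∑ x, w x) :
    (∑ x, w x * max (-Real.log (r x)) 0) ^ 2 ≤
      2 * (∑ x, w x) * ∑ x, w x * Real.log (r x) := by
  have hW : 0 ≤ ∑ x, w x := Finset.sum_nonneg fun x _ => (hw x).le
  -- first step
  have h1 : ∑ x, w x * max (-Real.log (r x)) 0 ≤ ∑ x, w x * (max (1 - r x) 0 / r x) :=
    Finset.sum_le_sum fun x _ => mul_le_mul_of_nonneg_left (log_neg_le (hr x)) (hw x).le
  have h0 : 0 ≤ ∑ x, w x * max (-Real.log (r x)) 0 :=
    Finset.sum_nonneg fun x _ => mul_nonneg (hw x).le (le_max_right _ _)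
  have h2 : (∑ x, w x * (max (1 - r x) 0 / r x)) ^ 2 ≤
      (∑ x, w x / r x) * ∑ x, w x * (max (1 - r x) 0 ^ 2 / r x) := by
    have hcs := Finset.sum_mul_sq_le_sq_mul_sq (univ : Finset X)
      (fun x => Real.sqrt (w x / r x)) (fun x => Real.sqrt (w x / r x) * max (1 - r x) 0)
    have e1 : ∀ x, Real.sqrt (w x / r x) * (Real.sqrt (w x / r x) * max (1 - r x) 0) =
        w x * (max (1 - r x) 0 / r x) := by
      intro x
      have hpos : 0 ≤ w x / r x := (div_pos (hw x) (hr x)).le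
      rw [← mul_assoc, Real.mul_self_sqrt hpos]
      ring
    have e2 : ∀ x, Real.sqrt (w x / r x) ^ 2 = w x / r x := by
      intro x
      exact Real.sq_sqrt (div_pos (hw x) (hr x)).le
    have e3 : ∀ x, (Real.sqrt (w x / r x) * max (1 - r x) 0) ^ 2 =
        w x * (max (1 - r x) 0 ^ 2 / r x) := by
      intro x
      rw [mul_pow, e2]
      ring
    simp only [e1, e2, e3] at hcs
    exact hcs
  have h3 : ∑ x, w x * (max (1 - r x) 0 ^ 2 / r x) ≤ 2 * ∑ x, w x * Real.log (r x) := by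
    have h4 : ∀ x, w x * (max (1 - r x) 0 ^ 2 / r x) ≤
        w x * (2 * (Real.log (r x) - 1 + (r x)⁻¹)) := by
      intro x
      refine mul_le_mul_of_nonneg_left ?_ (hw x).le
      rcases le_total (r x) 1 with h5 | h5
      · rw [max_eq_left (by linarith)]
        exact phi_ge (hr x) h5
      · rw [max_eq_right (by linarith)]
        have h6 := Real.log_le_sub_one_of_pos (inv_pos.mpr (hr x))
        rw [Real.log_inv] at h6
        simp
        linarith
    refine (Finset.sum_le_sum fun x _ => h4 x).trans ?_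
    have h7 : ∑ x, w x * (2 * (Real.log (r x) - 1 + (r x)⁻¹)) =
        2 * ∑ x, w x * Real.log (r x) + 2 * (∑ x, w x / r x - ∑ x, w x) := by
      rw [Finset.mul_sum, ← Finset.sum_sub_distrib, Finset.mul_sum, ← Finset.sum_add_distrib]
      refine Finset.sum_congr rfl fun x _ => ?_
      rw [div_eq_mul_inv]
      ring
    rw [h7]
    linarith
  have h8 : 0 ≤ ∑ x, w x * (max (1 - r x) 0 ^ 2 / r x) :=
    Finset.sum_nonneg fun x _ => mul_nonneg (hw x).le (div_nonneg (sq_nonneg _) (hr x).le)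
  calc (∑ x, w x * max (-Real.log (r x)) 0) ^ 2 ≤
        (∑ x, w x * (max (1 - r x) 0 / r x)) ^ 2 := by
        exact pow_le_pow_left₀ h0 h1 2
    _ ≤ (∑ x, w x / r x) * ∑ x, w x * (max (1 - r x) 0 ^ 2 / r x) := h2
    _ ≤ (∑ x, w x) * (2 * ∑ x, w x * Real.log (r x)) :=
        mul_le_mul h h3 h8 hW
    _ = 2 * (∑ x, w x) * ∑ x, w x * Real.log (r x) := by ring

/-! ### All levels -/

/-- Total variation of the logarithm of the density: if the weighted average of `1 / r j` is at
most one on every level `j` and the product of the `r j` is at most `e^B` everywhere, then the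
weighted average of `∑ |log r j|` is at most `B + √(8 n B)`. -/
theorem total_variation (n : ℕ) (w : X → ℝ) (r : ℕ → X → ℝ) (B : ℝ)
    (hw : ∀ x, 0 < w x) (hr : ∀ j, j < n → ∀ x, 0 < r j x)
    (h : ∀ j, j < n → ∑ x, w x / r j x ≤ ∑ x, w x)
    (hB : ∀ x, ∑ j ∈ range n, Real.log (r j x) ≤ B) (hB0 : 0 ≤ B) :
    ∑ x, w x * ∑ j ∈ range n, |Real.log (r j x)| ≤
      (∑ x, w x) * (B + Real.sqrt (8 * n * B)) := by
  have hW : 0 ≤ ∑ x, w x := Finset.sum_nonneg fun x _ => (hw x).le
  set K : ℕ → ℝ := fun j => ∑ x, w x * Real.log (r j x) with hK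
  set N : ℕ → ℝ := fun j => ∑ x, w x * max (-Real.log (r j x)) 0 with hN
  have hK0 : ∀ j, j < n → 0 ≤ K j := fun j hj => log_avg_nonneg w (r j) hw (hr j hj) (h j hj)
  have hN0 : ∀ j, 0 ≤ N j := fun j =>
    Finset.sum_nonneg fun x _ => mul_nonneg (hw x).le (le_max_right _ _)
  have hN2 : ∀ j, j < n → N j ^ 2 ≤ 2 * (∑ x, w x) * K j :=
    fun j hj => log_neg_avg_sq w (r j) hw (hr j hj) (h j hj)
  have habs : ∀ a : ℝ, |a| = a + 2 * max (-a) 0 := by
    intro a
    rcases le_total 0 a with h1 | h1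
    · rw [abs_of_nonneg h1, max_eq_right (by linarith)]; ring
    · rw [abs_of_nonpos h1, max_eq_left (by linarith)]; ring
  have e1 : ∑ x, w x * ∑ j ∈ range n, |Real.log (r j x)| =
      ∑ j ∈ range n, K j + 2 * ∑ j ∈ range n, N j := by
    have : ∀ x, w x * ∑ j ∈ range n, |Real.log (r j x)| =
        ∑ j ∈ range n, (w x * Real.log (r j x) + 2 * (w x * max (-Real.log (r j x)) 0)) := by
      intro x
      rw [Finset.mul_sum]
      refine Finset.sum_congr rfl fun j _ => ?_
      rw [habs]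
      ring
    simp only [this]
    rw [Finset.sum_comm, Finset.mul_sum, ← Finset.sum_add_distrib]
    refine Finset.sum_congr rfl fun j _ => ?_
    rw [Finset.sum_add_distrib, ← Finset.mul_sum]
  have hKB : ∑ j ∈ range n, K j ≤ (∑ x, w x) * B := by
    have e2 : ∑ j ∈ range n, K j = ∑ x, w x * ∑ j ∈ range n, Real.log (r j x) := by
      simp only [hK, Finset.mul_sum]
      exact Finset.sum_comm
    rw [e2, Finset.sum_mul]
    exact Finset.sum_le_sum fun x _ => mul_le_mul_of_nonneg_left (hB x) (hw x).le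
  have hNB : (∑ j ∈ range n, N j) ^ 2 ≤ 2 * n * ((∑ x, w x) * ((∑ x, w x) * B)) := by
    have h1 : (∑ j ∈ range n, N j) ^ 2 ≤ (#(range n) : ℝ) * ∑ j ∈ range n, N j ^ 2 :=
      sq_sum_le_card_mul_sum_sq
    rw [Finset.card_range] at h1
    have h2 : ∑ j ∈ range n, N j ^ 2 ≤ 2 * (∑ x, w x) * ∑ j ∈ range n, K j := by
      rw [Finset.mul_sum]
      exact Finset.sum_le_sum fun j hj => hN2 j (Finset.mem_range.mp hj)
    have h3 : 2 * (∑ x, w x) * ∑ j ∈ range n, K j ≤ 2 * (∑ x, w x) * ((∑ x, w x) * B) :=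
      mul_le_mul_of_nonneg_left hKB (by linarith)
    have hn : (0 : ℝ) ≤ n := by positivity
    calc (∑ j ∈ range n, N j) ^ 2 ≤ n * ∑ j ∈ range n, N j ^ 2 := h1
      _ ≤ n * (2 * (∑ x, w x) * ((∑ x, w x) * B)) :=
        mul_le_mul_of_nonneg_left (h2.trans h3) hn
      _ = _ := by ring
  have hN3 : 2 * ∑ j ∈ range n, N j ≤ (∑ x, w x) * Real.sqrt (8 * n * B) := by
    have hn : (0 : ℝ) ≤ n := by positivity
    have hs0 : 0 ≤ ∑ j ∈ range n, N j := Finset.sum_nonneg fun j _ => hN0 j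
    have hr0 : 0 ≤ (∑ x, w x) * Real.sqrt (8 * n * B) := mul_nonneg hW (Real.sqrt_nonneg _)
    have hsq : (2 * ∑ j ∈ range n, N j) ^ 2 ≤ ((∑ x, w x) * Real.sqrt (8 * n * B)) ^ 2 := by
      rw [mul_pow, mul_pow, Real.sq_sqrt (by positivity)]
      nlinarith [hNB]
    exact abs_le_of_sq_le_sq' hsq hr0 |>.2
  rw [e1]
  calc ∑ j ∈ range n, K j + 2 * ∑ j ∈ range n, N j ≤
      (∑ x, w x) * B + (∑ x, w x) * Real.sqrt (8 * n * B) := add_le_add hKB hN3
    _ = _ := by ring

/-! ### Dyadic cells with fast growth -/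

/-- Level `j` lies in a dyadic cell of scale at most `S` on which the sum of `l` is larger than
`c` times its length. -/
def InBad (l : ℕ → ℝ) (c : ℝ) (S j : ℕ) : Prop :=
  ∃ s, s ≤ S ∧ c * 2 ^ s < ∑ i ∈ Finset.Ico (j / 2 ^ s * 2 ^ s) ((j / 2 ^ s + 1) * 2 ^ s), l i

open Classical in
theorem card_bad_cell (l : ℕ → ℝ) (c : ℝ) (hc : 0 ≤ c) (S : ℕ) : ∀ a : ℕ,
    c * (#{j ∈ Finset.Ico (a * 2 ^ S) ((a + 1) * 2 ^ S) | InBad l c S j} : ℝ) ≤
      ∑ i ∈ Finset.Ico (a * 2 ^ S) ((a + 1) * 2 ^ S), max (l i) 0 := by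
  have hself : ∀ (S a : ℕ), ∑ i ∈ Finset.Ico (a * 2 ^ S) ((a + 1) * 2 ^ S), l i ≤
      ∑ i ∈ Finset.Ico (a * 2 ^ S) ((a + 1) * 2 ^ S), max (l i) 0 := fun S a =>
    Finset.sum_le_sum fun i _ => le_max_left _ _
  induction S with
  | zero =>
    intro a
    have hI : Finset.Ico (a * 2 ^ 0) ((a + 1) * 2 ^ 0) = {a} := by simp
    rw [hI]
    by_cases hb : InBad l c 0 a
    · have h1 : ({j ∈ ({a} : Finset ℕ) | InBad l c 0 j}) = {a} := by
        rw [Finset.filter_singleton, if_pos hb]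
      rw [h1]
      obtain ⟨s, hs, hs2⟩ := hb
      obtain rfl : s = 0 := by omega
      simp only [pow_zero, Nat.div_one, mul_one] at hs2
      have h2 : Finset.Ico a (a + 1) = {a} := by simp
      rw [h2] at hs2
      simp only [Finset.sum_singleton, Finset.card_singleton, Nat.cast_one, mul_one] at hs2 ⊢
      exact hs2.le.trans (le_max_left _ _)
    · have h1 : ({j ∈ ({a} : Finset ℕ) | InBad l c 0 j}) = ∅ := by
        rw [Finset.filter_singleton, if_neg hb]
      rw [h1]
      simp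
  | succ S ih =>
    intro a
    by_cases hb : c * 2 ^ (S + 1) < ∑ i ∈ Finset.Ico (a * 2 ^ (S + 1)) ((a + 1) * 2 ^ (S + 1)), l i
    · have h1 : (#{j ∈ Finset.Ico (a * 2 ^ (S + 1)) ((a + 1) * 2 ^ (S + 1)) |
          InBad l c (S + 1) j} : ℝ) ≤ 2 ^ (S + 1) := by
        have h2 : #{j ∈ Finset.Ico (a * 2 ^ (S + 1)) ((a + 1) * 2 ^ (S + 1)) |
            InBad l c (S + 1) j} ≤ 2 ^ (S + 1) := by
          refine (Finset.card_filter_le _ _).trans ?_
          rw [Nat.card_Ico, ← Nat.sub_mul, Nat.add_sub_cancel_left, one_mul]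
        exact_mod_cast h2
      calc c * _ ≤ c * 2 ^ (S + 1) := mul_le_mul_of_nonneg_left h1 hc
        _ ≤ _ := hb.le
        _ ≤ _ := hself _ _
    · have hsplit : Finset.Ico (a * 2 ^ (S + 1)) ((a + 1) * 2 ^ (S + 1)) =
          Finset.Ico ((2 * a) * 2 ^ S) ((2 * a + 1) * 2 ^ S) ∪
          Finset.Ico ((2 * a + 1) * 2 ^ S) ((2 * a + 1 + 1) * 2 ^ S) := by
        have e1 : a * 2 ^ (S + 1) = (2 * a) * 2 ^ S := by ring
        have e2 : (a + 1) * 2 ^ (S + 1) = (2 * a + 1 + 1) * 2 ^ S := by ring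
        rw [e1, e2, Finset.Ico_union_Ico_eq_Ico]
        · exact Nat.mul_le_mul_right _ (by omega)
        · exact Nat.mul_le_mul_right _ (by omega)
      have hdisj : Disjoint (Finset.Ico ((2 * a) * 2 ^ S) ((2 * a + 1) * 2 ^ S))
          (Finset.Ico ((2 * a + 1) * 2 ^ S) ((2 * a + 1 + 1) * 2 ^ S)) :=
        Finset.Ico_disjoint_Ico_consecutive _ _ _
      -- inside the cell, bad of scale ≤ S+1 means bad of scale ≤ S
      have hbad : ∀ j ∈ Finset.Ico (a * 2 ^ (S + 1)) ((a + 1) * 2 ^ (S + 1)),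
          (InBad l c (S + 1) j ↔ InBad l c S j) := by
        intro j hj
        rw [Finset.mem_Ico] at hj
        constructor
        · rintro ⟨s, hs, hs2⟩
          rcases Nat.lt_or_ge s (S + 1) with h3 | h3
          · exact ⟨s, by omega, hs2⟩
          · exfalso
            obtain rfl : s = S + 1 := by omega
            have h4 : j / 2 ^ (S + 1) = a := by
              rw [Nat.div_eq_iff (Nat.pow_pos (by norm_num))]
              constructor
              · rw [Nat.mul_comm]; linarith [hj.1]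
              · have := hj.2
                have h5 : (a + 1) * 2 ^ (S + 1) = a * 2 ^ (S + 1) + 2 ^ (S + 1) := by ring
                omega
            rw [h4] at hs2
            exact hb hs2
        · rintro ⟨s, hs, hs2⟩
          exact ⟨s, by omega, hs2⟩
      rw [Finset.filter_congr hbad, hsplit, Finset.filter_union,
        Finset.card_union_of_disjoint (Finset.disjoint_filter_filter hdisj),
        Finset.sum_union hdisj]
      push_cast
      rw [mul_add]
      exact add_le_add (ih _) (ih _)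

open Classical in
/-- The number of levels below `m * 2^S` in bad cells is at most the positive variation
divided by `c`. -/
theorem card_bad (l : ℕ → ℝ) (c : ℝ) (hc : 0 ≤ c) (S m : ℕ) :
    c * (#{j ∈ range (m * 2 ^ S) | InBad l c S j} : ℝ) ≤
      ∑ i ∈ range (m * 2 ^ S), max (l i) 0 := by
  induction m with
  | zero => simp
  | succ m ih =>
    have e1 : range ((m + 1) * 2 ^ S) = range (m * 2 ^ S) ∪
        Finset.Ico (m * 2 ^ S) ((m + 1) * 2 ^ S) := by
      rw [Finset.range_eq_Ico, Finset.range_eq_Ico, Finset.Ico_union_Ico_eq_Ico (Nat.zero_le _)]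
      exact Nat.mul_le_mul_right _ (by omega)
    have hdisj : Disjoint (range (m * 2 ^ S)) (Finset.Ico (m * 2 ^ S) ((m + 1) * 2 ^ S)) := by
      rw [Finset.range_eq_Ico]
      exact Finset.Ico_disjoint_Ico_consecutive _ _ _
    rw [e1, Finset.filter_union,
      Finset.card_union_of_disjoint (Finset.disjoint_filter_filter hdisj), Finset.sum_union hdisj]
    push_cast
    rw [mul_add]
    exact add_le_add ih (card_bad_cell l c hc S m)

open Classical in
/-- Weighted average of the number of levels in bad cells. -/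
theorem avg_card_bad (S m : ℕ) (w : X → ℝ) (r : ℕ → X → ℝ) (B c : ℝ) (hc : 0 ≤ c)
    (hw : ∀ x, 0 < w x) (hr : ∀ j, j < m * 2 ^ S → ∀ x, 0 < r j x)
    (h : ∀ j, j < m * 2 ^ S → ∑ x, w x / r j x ≤ ∑ x, w x)
    (hB : ∀ x, ∑ j ∈ range (m * 2 ^ S), Real.log (r j x) ≤ B) (hB0 : 0 ≤ B) :
    c * ∑ x, w x * (#{j ∈ range (m * 2 ^ S) | InBad (fun i => Real.log (r i x)) c S j} : ℝ) ≤
      (∑ x, w x) * (B + Real.sqrt (8 * (m * 2 ^ S : ℕ) * B)) := by
  refine le_trans ?_ (total_variation (m * 2 ^ S) w r B hw hr h hB hB0)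
  rw [Finset.mul_sum]
  refine Finset.sum_le_sum fun x _ => ?_
  have h1 := card_bad (fun i => Real.log (r i x)) c hc S m
  have h2 : ∑ i ∈ range (m * 2 ^ S), max (Real.log (r i x)) 0 ≤
      ∑ i ∈ range (m * 2 ^ S), |Real.log (r i x)| :=
    Finset.sum_le_sum fun i _ => max_le (le_abs_self _) (abs_nonneg _)
  calc c * (w x * _) = w x * (c * _) := by ring
    _ ≤ w x * ∑ i ∈ range (m * 2 ^ S), |Real.log (r i x)| :=
      mul_le_mul_of_nonneg_left (h1.trans h2) (hw x).le

end Vale.Agent.P315.H968
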